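import Vale.Agent.P007.Poly

/-! Infinitely many totally real fields of composite degree containing a fixed irrational
algebraic integer. -/

open Polynomial NumberField IntermediateField

noncomputable section

namespace Vale.Agent.P007

lemma totallyReal_adjoin (S : Set ℝ)
    (hS : ∀ s ∈ S, ∃ p b : ℕ, 0 < p ∧ 0 < b ∧ aeval s (eis p b) = 0) :
    IsTotallyReal (adjoin ℚ S) := by
  refine ⟨fun w => ?_⟩
  rw [← InfinitePlace.mk_embedding w, InfinitePlace.isReal_mk_iff, ComplexEmbedding.isReal_iff]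
  set φ := w.embedding
  have : (ComplexEmbedding.conjugate φ).toRatAlgHom = φ.toRatAlgHom := by
    apply adjoin_algHom_ext
    intro x hx
    obtain ⟨p, b, hp, hb, h0⟩ := hS x hx
    set y : adjoin ℚ S := ⟨x, subset_adjoin _ _ hx⟩
    have h1 : aeval y (eis p b) = 0 := by
      apply (algebraMap (adjoin ℚ S) ℝ).injective
      rw [← aeval_algebraMap_apply, map_zero]
      exact h0
    have h2 : aeval (φ y) (eis p b) = 0 := by
      have := aeval_algHom_apply φ.toIntAlgHom y (eis p b)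
      rw [h1, map_zero] at this
      exact this
    obtain ⟨r, hr⟩ := eis_complex_root p b hp hb _ h2
    change (starRingEnd ℂ) (φ y) = φ y
    rw [← hr, Complex.conj_ofReal]
  ext x
  exact congrArg (fun f => f x) this

lemma exists_root_irred (E : IntermediateField ℚ ℝ) [FiniteDimensional ℚ E] (b : ℕ)
    (hb : 0 < b) : ∃ (p : ℕ) (β : ℝ), 0 < p ∧ aeval β (eis p b) = 0 ∧
      Irreducible ((eis p b).map (algebraMap ℤ E)) := by
  have : NumberField E := NumberField.mk
  obtain ⟨p, hp1, hp⟩ := Nat.exists_infinite_primes ((discr E).natAbs + 1)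
  have hd : ¬ (p : ℤ) ∣ discr E := by
    intro h
    have h1 : p ∣ (discr E).natAbs := Int.natCast_dvd.1 h
    have h2 := Nat.le_of_dvd (Int.natAbs_pos.2 (discr_ne_zero E)) h1
    omega
  obtain ⟨r, -, hr⟩ := eis_root p b hp.pos 0 hb
  exact ⟨p, r, hp.pos, hr, eis_irreducible E p b hp hb hd⟩

lemma minpoly_eq_eis (F : IntermediateField ℚ ℝ) (p b : ℕ) (hb : 0 < b) (β : ℝ)
    (h0 : aeval β (eis p b) = 0) (hirr : Irreducible ((eis p b).map (algebraMap ℤ F))) :
    IsIntegral F β ∧ (minpoly F β).natDegree = b := by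
  have hm : ((eis p b).map (algebraMap ℤ F)).Monic := (eis_monic p b hb).map _
  have h1 : aeval β ((eis p b).map (algebraMap ℤ F)) = 0 := by
    rw [aeval_map_algebraMap]
    exact h0
  refine ⟨⟨_, hm, h1⟩, ?_⟩
  rw [← minpoly.eq_of_irreducible_of_monic hirr h1 hm, (eis_monic p b hb).natDegree_map,
    eis_natDegree]

theorem exists_family (a b : ℕ) (ha : 2 ≤ a) (hb : 2 ≤ b) :
    ∃ (θ : ℝ) (q : ℤ[X]), q.Monic ∧ aeval θ q = 0 ∧ (∀ k : ℤ, θ ≠ k) ∧
      {K : IntermediateField ℚ ℝ | FiniteDimensional ℚ K ∧ Module.finrank ℚ K = a * b ∧ θ ∈ K ∧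
        IsTotallyReal K}.Infinite := by
  obtain ⟨p, θ, hp, hθ, hirr⟩ := exists_root_irred ⊥ a (by omega)
  obtain ⟨hint, hdeg⟩ := minpoly_eq_eis ⊥ p a (by omega) θ hθ hirr
  have hθb : θ ∉ (⊥ : IntermediateField ℚ ℝ) := by
    intro h
    have := (minpoly.natDegree_eq_one_iff (A := (⊥ : IntermediateField ℚ ℝ)) (x := θ)).2
      ⟨⟨θ, h⟩, rfl⟩
    omega
  have hirrQ : Irreducible ((eis p a).map (algebraMap ℤ ℚ)) := by
    refine ((eis_monic p a (by omega)).map _).irreducible_of_irreducible_map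
      (algebraMap ℚ (⊥ : IntermediateField ℚ ℝ)) _ ?_
    rwa [Polynomial.map_map, ← IsScalarTower.algebraMap_eq]
  have hmQ : ((eis p a).map (algebraMap ℤ ℚ)).Monic := (eis_monic p a (by omega)).map _
  have h1Q : aeval θ ((eis p a).map (algebraMap ℤ ℚ)) = 0 := by
    rw [aeval_map_algebraMap]
    exact hθ
  have hintQ : IsIntegral ℚ θ := ⟨_, hmQ, h1Q⟩
  have hF : Module.finrank ℚ ℚ⟮θ⟯ = a := by
    rw [adjoin.finrank hintQ, ← minpoly.eq_of_irreducible_of_monic hirrQ h1Q hmQ,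
      (eis_monic p a (by omega)).natDegree_map, eis_natDegree]
  have hFfin : FiniteDimensional ℚ ℚ⟮θ⟯ := adjoin.finiteDimensional hintQ
  refine ⟨θ, eis p a, eis_monic p a (by omega), hθ, ?_, ?_⟩
  · rintro k rfl
    exact hθb (intCast_mem _ k)
  · intro hfin
    set S := {K : IntermediateField ℚ ℝ | FiniteDimensional ℚ K ∧ Module.finrank ℚ K = a * b ∧
      θ ∈ K ∧ IsTotallyReal K} with hS
    have : Finite S := hfin
    have : ∀ K : S, FiniteDimensional ℚ (K : IntermediateField ℚ ℝ) := fun K => K.2.1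
    let E : IntermediateField ℚ ℝ := ℚ⟮θ⟯ ⊔ ⨆ K : S, (K : IntermediateField ℚ ℝ)
    have : FiniteDimensional ℚ E := inferInstance
    obtain ⟨p', β, hp', hβ, hirrE⟩ := exists_root_irred E b (by omega)
    obtain ⟨-, hdegE⟩ := minpoly_eq_eis E p' b (by omega) β hβ hirrE
    have hβE : β ∉ E := by
      intro h
      have := (minpoly.natDegree_eq_one_iff (A := E) (x := β)).2 ⟨⟨β, h⟩, rfl⟩
      omega
    have hirrF : Irreducible ((eis p' b).map (algebraMap ℤ ℚ⟮θ⟯)) := by
      refine ((eis_monic p' b (by omega)).map _).irreducible_of_irreducible_map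
        (IntermediateField.inclusion (le_sup_left : ℚ⟮θ⟯ ≤ E)).toRingHom _ ?_
      rw [Polynomial.map_map]
      have e : (IntermediateField.inclusion (le_sup_left : ℚ⟮θ⟯ ≤ E)).toRingHom.comp
          (algebraMap ℤ ℚ⟮θ⟯) = algebraMap ℤ E := RingHom.ext_int _ _
      rw [e]
      exact hirrE
    obtain ⟨hintF, hdegF⟩ := minpoly_eq_eis ℚ⟮θ⟯ p' b (by omega) β hβ hirrF
    have hfinK : FiniteDimensional ℚ⟮θ⟯ ℚ⟮θ⟯⟮β⟯ := adjoin.finiteDimensional hintF
    have hadj : ℚ⟮θ⟯⟮β⟯.restrictScalars ℚ = ℚ⟮θ, β⟯ := adjoin_simple_adjoin_simple ℚ θ β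
    have hK : (ℚ⟮θ⟯⟮β⟯.restrictScalars ℚ) ∈ S := by
      refine ⟨?_, ?_, ?_, ?_⟩
      · exact Module.Finite.trans (R := ℚ) ℚ⟮θ⟯ ℚ⟮θ⟯⟮β⟯
      · have := Module.finrank_mul_finrank ℚ ℚ⟮θ⟯ ℚ⟮θ⟯⟮β⟯
        rw [hF, adjoin.finrank hintF, hdegF] at this
        exact this.symm
      · rw [hadj]
        exact subset_adjoin _ _ (by simp)
      · rw [hadj]
        apply totallyReal_adjoin
        rintro s (rfl | rfl)
        · exact ⟨p, a, hp, by omega, hθ⟩
        · exact ⟨p', b, hp', by omega, hβ⟩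
    apply hβE
    have h1 : (ℚ⟮θ⟯⟮β⟯.restrictScalars ℚ) ≤ E :=
      le_sup_of_le_right (le_iSup (fun K : S => (K : IntermediateField ℚ ℝ)) ⟨_, hK⟩)
    apply h1
    rw [hadj]
    exact subset_adjoin _ _ (by simp)

lemma card_real_embeddings (K : Type*) [Field K] [NumberField K] [IsTotallyReal K] :
    Nonempty (Fin (Module.finrank ℚ K) ≃ (K →+* ℝ)) := by
  let e : (K →+* ℂ) ≃ (K →+* ℝ) :=
    { toFun := fun φ => (IsTotallyReal.complexEmbedding_isReal φ).embedding
      invFun := fun ψ => Complex.ofRealHom.comp ψ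
      left_inv := fun φ => by
        ext x
        simp
      right_inv := fun ψ => by
        ext x
        apply Complex.ofReal_injective
        simp }
  have h := NumberField.Embeddings.card K ℂ
  exact ⟨(Fintype.equivFinOfCardEq h).symm.trans e⟩

end Vale.Agent.P007
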