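import Mathlib

/-! A set of finite volume that meets every orbit of `GL_n(Z)` on the matrices of small
determinant. -/

noncomputable section
namespace TP
open MeasureTheory Filter Set Matrix
open scoped Classical Topology ENNReal

theorem HCov_vec {n : ℕ} (h : Matrix (Fin n) (Fin n) ℝ) (hh : |h.det| = 1) :
    MeasurePreserving (fun v : Fin n → ℝ => v ᵥ* h) := by
  have h0 : hᵀ.det ≠ 0 := by
    rw [det_transpose]
    intro e
    simp [e] at hh
  have e : (fun v : Fin n → ℝ => v ᵥ* h) = toLin' hᵀ := funext fun v => by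
    simp [mulVec_transpose]
  rw [e]
  refine ⟨(LinearMap.continuous_of_finiteDimensional _).measurable, ?_⟩
  rw [Real.map_matrix_volume_pi_eq_smul_volume_pi h0, det_transpose, abs_inv, hh]
  simp

theorem HCov_right {m n : ℕ} (h : Matrix (Fin n) (Fin n) ℝ) (hh : |h.det| = 1) :
    MeasurePreserving (fun (g : Fin m → Fin n → ℝ) i => g i ᵥ* h) :=
  volume_preserving_pi (β' := fun _ => Fin n → ℝ) fun _ => HCov_vec h hh

theorem HCov_tr {n : ℕ} : MeasurePreserving (fun (g : Fin n → Fin n → ℝ) i j => g j i) := by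
  let T : (Fin n → Fin n → ℝ) →ₗ[ℝ] (Fin n → Fin n → ℝ) :=
    ⟨⟨fun g i j => g j i, fun _ _ => rfl⟩, fun _ _ => rfl⟩
  have h1 : LinearMap.det T * LinearMap.det T = 1 := by
    rw [← map_mul, show T * T = 1 from rfl, map_one]
  have h2 : |LinearMap.det T| = 1 := by
    have := congrArg abs h1
    rw [abs_mul, abs_one] at this
    nlinarith [abs_nonneg (LinearMap.det T)]
  have h3 : LinearMap.det T ≠ 0 := fun e => by simp [e] at h1
  refine ⟨T.continuous_of_finiteDimensional.measurable, ?_⟩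
  have := Measure.map_linearMap_addHaar_eq_smul_addHaar (volume : Measure (Fin n → Fin n → ℝ)) h3
  rw [abs_inv, h2, inv_one, ENNReal.ofReal_one, one_smul] at this
  exact this

theorem HCov_left {n : ℕ} (h : Matrix (Fin n) (Fin n) ℝ) (hh : |h.det| = 1) :
    MeasurePreserving (fun (g : Fin n → Fin n → ℝ) i j => (h * of g) i j) := by
  have := (HCov_tr.comp (HCov_right hᵀ (by rwa [det_transpose]))).comp (HCov_tr (n := n))
  refine (congrArg (fun f => MeasurePreserving f volume volume) ?_).mp this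
  funext g i j
  simp [vecMul, dotProduct, mul_apply, mul_comm]

/-- Minkowski's theorem. -/
theorem HCov_mink {n : ℕ} (M : Matrix (Fin (n + 1)) (Fin (n + 1)) ℝ) (hM : M.det ≠ 0)
    (h : |M.det| ≤ 1) : ∃ z : Fin (n + 1) → ℤ, z ≠ 0 ∧ ∀ i, |((fun k => (z k : ℝ)) ᵥ* M) i| < 2 := by
  let b := basisOfPiSpaceOfLinearIndependent (linearIndependent_rows_of_det_ne_zero hM)
  have hb : ⇑b = fun i => M i := coe_basisOfPiSpaceOfLinearIndependent _
  have : Countable (Submodule.span ℤ (Set.range b)).toAddSubgroup :=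
    inferInstanceAs (Countable (Submodule.span ℤ (Set.range b)))
  obtain ⟨⟨x, hx⟩, h0, h1⟩ := exists_ne_zero_mem_lattice_of_measure_mul_two_pow_lt_measure
    (ZSpan.isAddFundamentalDomain' b volume) (s := Set.univ.pi fun _ => Set.Ioo (-2 : ℝ) 2)
    (fun x hx i hi => ⟨neg_lt_neg (hx i hi).2, neg_lt.1 (hx i hi).1⟩)
    (convex_pi fun i _ => convex_Ioo _ _) (by
      rw [ZSpan.volume_fundamentalDomain, hb, Real.volume_pi_Ioo]
      change ENNReal.ofReal |M.det| * _ < _
      simp only [Module.finrank_fin_fun, Finset.prod_const, Finset.card_univ, Fintype.card_fin]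
      refine (mul_le_mul_left (ENNReal.ofReal_le_one.2 h) _).trans_lt ?_
      rw [one_mul]
      refine ENNReal.pow_lt_pow_left (by omega) ?_
      rw [← ENNReal.ofReal_ofNat, ENNReal.ofReal_lt_ofReal_iff (by norm_num)]
      norm_num)
  obtain ⟨z, rfl⟩ := (Submodule.mem_span_range_iff_exists_fun ℤ).1 hx
  have e : (fun k => (z k : ℝ)) ᵥ* M = ∑ i, z i • b i := by
    simp only [vecMul_eq_sum, hb, Int.cast_smul_eq_zsmul]
  exact ⟨z, fun h => h0 (Subtype.ext (by simp [h])), fun i => e ▸ abs_lt.2 (h1 i trivial)⟩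

/-- A non zero integer vector is a multiple of the first row of a unimodular matrix. -/
theorem HCov_prim {n : ℕ} (z : Fin (n + 1) → ℤ) (hz : z ≠ 0) :
    ∃ (γ : Matrix (Fin (n + 1)) (Fin (n + 1)) ℤ) (c : ℤ), IsUnit γ.det ∧ c ≠ 0 ∧ z = c • γ 0 := by
  obtain ⟨k, bM, bN, f, a, snf⟩ :=
    (Submodule.span ℤ {z}).smithNormalForm (Pi.basisFun ℤ (Fin (n + 1)))
  have hk : 0 < k := by
    rcases k with _ | k
    · have := bN.sum_repr ⟨z, Submodule.mem_span_singleton_self z⟩
      rw [Finset.univ_eq_empty, Finset.sum_empty] at this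
      exact absurd (congrArg Subtype.val this).symm hz
    · omega
  let i : Fin k := ⟨0, hk⟩
  obtain ⟨q, hq⟩ := Submodule.mem_span_singleton.1 (bN i).2
  have hq0 : q ≠ 0 := fun e => bN.ne_zero i (Subtype.ext (by rw [← hq, e]; simp))
  have h1 : z = bM.repr z (f i) • bM (f i) := by
    conv_lhs => rw [← bM.sum_repr z]
    refine Finset.sum_eq_single _ (fun j _ hj => ?_) (by simp)
    have := congrArg (fun v => bM.repr v j) (hq.trans (snf i))
    simp only [map_smul, Finsupp.smul_apply, Module.Basis.repr_self, smul_eq_mul,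
      Finsupp.single_eq_of_ne hj, mul_zero] at this
    rw [(mul_eq_zero.1 this).resolve_left hq0, zero_smul]
  let b := bM.reindex (Equiv.swap 0 (f i))
  refine ⟨((Pi.basisFun ℤ (Fin (n + 1))).toMatrix b)ᵀ, bM.repr z (f i), ?_,
    fun e => hz (by rw [h1, e, zero_smul]), h1.trans ?_⟩
  · rw [det_transpose, ← Module.Basis.det_apply]
    exact Module.Basis.isUnit_det _ _
  · congr 1
    funext j
    simp [b, Module.Basis.toMatrix_apply]

/-- The matrix that moves `v` to the first basis vector. -/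
def hM {n : ℕ} (v : Fin (n + 2) → ℝ) : Matrix (Fin (n + 2)) (Fin (n + 2)) ℝ :=
  (of fun i j => if i = j then 1 else if i = 0 then -(v j / v 0) else 0) *
    diagonal fun j => if j = 0 then (v 0)⁻¹ else if j = 1 then v 0 else 1

theorem HCov_det {n : ℕ} (v : Fin (n + 2) → ℝ) (hv : v 0 ≠ 0) : (hM v).det = 1 := by
  rw [hM, det_mul, det_diagonal, det_of_upperTriangular, Fin.prod_univ_succ, Fin.prod_univ_succ,
    Fin.prod_univ_succ, Fin.prod_univ_succ]
  · have h1 : ∀ i : Fin n, i.succ.succ ≠ 1 := fun i => by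
      simp [Fin.ext_iff]
    simp [h1, hv]
  · intro i j h
    have h1 : i ≠ j := fun e => by simp [e] at h
    have h2 : i ≠ 0 := fun e => by simp [e] at h
    simp [h1, h2]

theorem HCov_row {n : ℕ} (v : Fin (n + 2) → ℝ) (hv : v 0 ≠ 0) (j : Fin (n + 2)) :
    (v ᵥ* hM v) j = if j = 0 then 1 else 0 := by
  rw [hM, ← vecMul_vecMul, vecMul_diagonal]
  have : (v ᵥ* of fun i j => if i = j then 1 else if i = 0 then -(v j / v 0) else 0) j
      = if j = 0 then v 0 else 0 := by
    simp only [vecMul, dotProduct, of_apply]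
    by_cases h : j = 0
    · subst h
      rw [Finset.sum_eq_single 0 (fun i _ hi => by simp [hi]) (by simp)]
      simp
    · rw [Finset.sum_eq_add_of_mem 0 j (by simp) (by simp) (Ne.symm h)
        (fun i _ hi => by simp [hi.1, hi.2])]
      simp only [if_neg (Ne.symm h), if_true, if_neg h]
      field_simp
      ring
  rw [this]
  split_ifs <;> simp [hv]

theorem HCov_meas {n : ℕ} (i j : Fin (n + 2)) : Measurable fun v : Fin (n + 2) → ℝ => hM v i j := by
  simp only [hM, mul_diagonal, of_apply]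
  split_ifs <;> fun_prop

/-- The covering property. -/
def Covs {n : ℕ} (F : Set (Fin n → Fin n → ℝ)) : Prop := MeasurableSet F ∧ volume F ≠ ∞ ∧
  ∀ g : Matrix (Fin n) (Fin n) ℝ, g.det ≠ 0 → |g.det| ≤ 1 → ∃ γ : Matrix (Fin n) (Fin n) ℤ,
    IsUnit γ.det ∧ (fun i j => (γ.map (Int.cast : ℤ → ℝ) * g) i j) ∈ F

theorem HCov_step {n : ℕ} {F : Set (Fin (n + 1) → Fin (n + 1) → ℝ)} (hF : Covs F) :
    ∃ F' : Set (Fin (n + 2) → Fin (n + 2) → ℝ), Covs F' := by
  obtain ⟨hFm, hFv, hFc⟩ := hF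
  let W : Set (Fin (n + 1) → Fin (n + 2) → ℝ) :=
    {r | (fun j => r j 0) ∈ Icc (0 : Fin (n + 1) → ℝ) 1 ∧ (fun j l => r j (Fin.succ l)) ∈ F}
  have hWm : MeasurableSet W :=
    (measurableSet_Icc.preimage (by fun_prop)).inter (hFm.preimage (by fun_prop))
  have hWv : volume W ≠ ∞ := by
    have h1 := (volume_measurePreserving_arrowProdEquivProdArrow ℝ (Fin (n + 1) → ℝ)
      (Fin (n + 1))).comp (volume_preserving_pi (α' := fun _ : Fin (n + 1) => Fin (n + 2) → ℝ)
        fun _ => volume_preserving_piFinSuccAbove (fun _ : Fin (n + 2) => ℝ) 0)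
    have h2 := h1.measure_preimage ((measurableSet_Icc (a := (0 : Fin (n + 1) → ℝ))
      (b := 1)).prod hFm).nullMeasurableSet
    have h3 : volume W = volume (Icc (0 : Fin (n + 1) → ℝ) 1 ×ˢ F) := h2
    rw [h3, Measure.volume_eq_prod, Measure.prod_prod]
    exact ENNReal.mul_ne_top isCompact_Icc.measure_lt_top.ne hFv
  let V : Set ((Fin (n + 2) → ℝ) × (Fin (n + 1) → Fin (n + 2) → ℝ)) :=
    {p | (p.1 ∈ Icc (-2) 2 ∧ p.1 0 ≠ 0) ∧ (fun j => p.2 j ᵥ* hM p.1) ∈ W}
  have hVm : MeasurableSet V := by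
    refine (((measurableSet_Icc.preimage measurable_fst)).inter
      ((measurableSet_singleton (0 : ℝ)).compl.preimage (f := fun p : (Fin (n + 2) → ℝ) ×
        (Fin (n + 1) → Fin (n + 2) → ℝ) => p.1 0) (by fun_prop))).inter (hWm.preimage ?_)
    refine measurable_pi_lambda _ fun j => measurable_pi_lambda _ fun l => ?_
    simp only [vecMul, dotProduct]
    exact Finset.measurable_sum _ fun i _ =>
      (by fun_prop : Measurable fun p : (Fin (n + 2) → ℝ) × (Fin (n + 1) → Fin (n + 2) → ℝ) =>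
        p.2 j i).mul ((HCov_meas i l).comp measurable_fst)
  have hVv : volume V ≠ ∞ := by
    rw [Measure.volume_eq_prod, Measure.prod_apply hVm]
    have h1 : ∀ v, volume (Prod.mk v ⁻¹' V) ≤ (Icc (-2) 2).indicator (fun _ => volume W) v := by
      intro v
      by_cases hv : v ∈ Icc (-2) 2 ∧ v 0 ≠ 0
      · rw [indicator_of_mem hv.1, ← (HCov_right (hM v) (by
          rw [HCov_det v hv.2, abs_one])).measure_preimage hWm.nullMeasurableSet]
        exact measure_mono fun r hr => hr.2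
      · rw [show Prod.mk v ⁻¹' V = ∅ from eq_empty_of_forall_notMem fun r hr => hv hr.1]
        simp
    refine ne_top_of_le_ne_top ?_ (lintegral_mono h1)
    rw [lintegral_indicator_const measurableSet_Icc]
    exact ENNReal.mul_ne_top hWv isCompact_Icc.measure_lt_top.ne
  let F0 : Set (Fin (n + 2) → Fin (n + 2) → ℝ) := (fun g => (g 0, fun j => g (Fin.succ j))) ⁻¹' V
  have h0m : MeasurableSet F0 := hVm.preimage (by fun_prop)
  have h0v : volume F0 ≠ ∞ := by
    have h2 := (volume_preserving_piFinSuccAbove (fun _ : Fin (n + 2) => Fin (n + 2) → ℝ)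
      0).measure_preimage hVm.nullMeasurableSet
    have h3 : volume F0 = volume V := h2
    rwa [h3]
  have hP : ∀ k : Fin (n + 2), |((Equiv.swap 0 k).permMatrix ℝ).det| = 1 := fun k => by
    rw [det_permutation]
    rcases Int.units_eq_one_or (Equiv.Perm.sign (Equiv.swap 0 k)) with h | h <;> simp [h]
  refine ⟨⋃ k : Fin (n + 2), (fun g i => g i ᵥ* (Equiv.swap 0 k).permMatrix ℝ) ⁻¹' F0,
    MeasurableSet.iUnion fun k => h0m.preimage (HCov_right _ (hP k)).measurable, ?_,
    fun g hg hg1 => ?_⟩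
  · refine ne_top_of_le_ne_top ?_ (measure_iUnion_fintype_le _ _)
    exact ENNReal.sum_ne_top.2 fun k _ => by
      rwa [(HCov_right _ (hP k)).measure_preimage h0m.nullMeasurableSet]
  obtain ⟨z, hz, hz2⟩ := HCov_mink g hg hg1
  obtain ⟨γ, c, hγ, hc, rfl⟩ := HCov_prim z hz
  have hγ1 : |(γ.map (Int.cast : ℤ → ℝ)).det| = 1 := by
    rw [← Int.cast_det]
    rcases Int.isUnit_iff.1 hγ with h | h <;> simp [h]
  set g1 := γ.map (Int.cast : ℤ → ℝ) * g with hg1d
  have hd1 : |g1.det| = |g.det| := by rw [det_mul, abs_mul, hγ1, one_mul]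
  have hb : ∀ i, |g1 0 i| ≤ 2 := fun i => by
    have e : ((fun k => ((c • γ 0) k : ℝ)) ᵥ* g) i = c * g1 0 i := by
      simp [hg1d, vecMul, dotProduct, mul_apply, Finset.mul_sum, mul_assoc]
    have h1 := hz2 i
    rw [e, abs_mul] at h1
    have h2 : (1 : ℝ) ≤ |(c : ℝ)| := by exact_mod_cast Int.one_le_abs hc
    nlinarith [abs_nonneg (g1 0 i)]
  obtain ⟨k, hk⟩ : ∃ k, g1 0 k ≠ 0 := by
    by_contra h
    push Not at h
    rw [det_eq_zero_of_row_eq_zero 0 h] at hd1
    exact hg (abs_eq_zero.1 (by simpa using hd1.symm))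
  set P := (Equiv.swap 0 k).permMatrix ℝ with hPd
  set g2 := g1 * P with hg2
  have h2e : ∀ j, g2 0 j = g1 0 (Equiv.swap 0 k j) := fun j => by
    rw [hg2, hPd, Equiv.Perm.permMatrix, PEquiv.mul_toMatrix_toPEquiv]
    simp
  have hv : g2 0 0 ≠ 0 := by simpa [h2e] using hk
  set g3 := g2 * hM (g2 0) with hg3
  have h3r : ∀ j, g3 0 j = if j = 0 then 1 else 0 := fun j => HCov_row (g2 0) hv j
  have hd3 : |(g3.submatrix Fin.succ Fin.succ).det| = |g.det| := by
    have e : g3.det = (g3.submatrix Fin.succ Fin.succ).det := by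
      rw [det_succ_row_zero, Finset.sum_eq_single 0 (fun j _ hj => by simp [h3r, hj]) (by simp)]
      simp [h3r]
    rw [← e, det_mul, HCov_det _ hv, mul_one, det_mul, abs_mul, hP, mul_one, hd1]
  obtain ⟨γ', hγ', hF'⟩ := hFc (g3.submatrix Fin.succ Fin.succ)
    (fun e => hg (abs_eq_zero.1 (by rw [← hd3, e, abs_zero]))) (hd3 ▸ hg1)
  let cc : Fin (n + 1) → ℝ := fun j => ∑ l, (γ' j l : ℝ) * g3 l.succ 0
  let γ2 : Matrix (Fin (n + 2)) (Fin (n + 2)) ℤ :=
    of (Fin.cons (Fin.cons 1 0) fun j => Fin.cons (-⌊cc j⌋) (γ' j))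
  have hγ2 : γ2.det = γ'.det := by
    rw [det_succ_row_zero, Fin.sum_univ_succ]
    simp only [γ2, of_apply, Fin.cons_zero, Fin.cons_succ, Pi.zero_apply, mul_zero, zero_mul,
      Finset.sum_const_zero, add_zero, Fin.val_zero, pow_zero, one_mul, Fin.succAbove_zero]
    congr 1
  refine ⟨γ2 * γ, by rw [det_mul, hγ2]; exact hγ'.mul hγ, mem_iUnion.2 ⟨k, ?_⟩⟩
  have e0 : (fun i => (fun j => ((γ2 * γ).map (Int.cast : ℤ → ℝ) * g) i j) ᵥ* P)
      = fun i j => (γ2.map (Int.cast : ℤ → ℝ) * g2) i j := by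
    funext i j
    have : (γ2 * γ).map (Int.cast : ℤ → ℝ) = γ2.map Int.cast * γ.map Int.cast :=
      Matrix.map_mul (f := Int.castRingHom ℝ)
    rw [hg2, hg1d, ← Matrix.mul_assoc, ← Matrix.mul_assoc, ← this]
    rfl
  have e1 : (fun j => (γ2.map (Int.cast : ℤ → ℝ) * g2) 0 j) = g2 0 := by
    funext j
    simp [γ2, mul_apply, Fin.sum_univ_succ]
  have e2 : ∀ i l, ((fun j => (γ2.map (Int.cast : ℤ → ℝ) * g2) i j) ᵥ* hM (g2 0)) l
      = (γ2.map (Int.cast : ℤ → ℝ) * g3) i l := fun i l => by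
    rw [hg3, ← Matrix.mul_assoc _ g2]
    rfl
  change (fun i => (fun j => ((γ2 * γ).map (Int.cast : ℤ → ℝ) * g) i j) ᵥ* P) ∈ F0
  rw [e0]
  change ((fun j => (γ2.map (Int.cast : ℤ → ℝ) * g2) 0 j),
    fun i j => (γ2.map (Int.cast : ℤ → ℝ) * g2) (Fin.succ i) j) ∈ V
  rw [e1]
  refine ⟨⟨⟨fun j => ?_, fun j => ?_⟩, hv⟩, ?_, ?_⟩
  · exact (abs_le.1 (hb _)).1.trans (h2e j).ge
  · exact (h2e j).le.trans (abs_le.1 (hb _)).2
  · have e3 : ∀ j : Fin (n + 1), (γ2.map (Int.cast : ℤ → ℝ) * g3) j.succ 0 = Int.fract (cc j) := by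
      intro j
      rw [mul_apply, Fin.sum_univ_succ, h3r, Int.fract]
      simp only [γ2, map_apply, of_apply, Fin.cons_zero, Fin.cons_succ, cc]
      simp [sub_eq_neg_add]
    exact ⟨fun j => (Int.fract_nonneg (cc j)).trans ((e2 _ _).trans (e3 j)).ge,
      fun j => ((e2 _ _).trans (e3 j)).le.trans (Int.fract_lt_one (cc j)).le⟩
  · refine (congrArg (· ∈ F) ?_).mp hF'
    funext j l
    simp only [e2]
    rw [mul_apply, mul_apply, Fin.sum_univ_succ (n := n + 1), h3r]
    simp [γ2]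

theorem HCov_ex (n : ℕ) : ∃ F : Set (Fin (n + 1) → Fin (n + 1) → ℝ), Covs F := by
  induction n with
  | zero =>
    have : Unique (Fin (0 + 1)) := inferInstanceAs (Unique (Fin 1))
    refine ⟨Icc (-1) 1, measurableSet_Icc, isCompact_Icc.measure_lt_top.ne, fun g _ hg =>
      ⟨1, by simp, ?_⟩⟩
    have : ∀ i j, |g i j| ≤ 1 := fun i j => by
      rwa [det_eq_elem_of_subsingleton g i, show g i i = g i j by rw [Subsingleton.elim j i]] at hg
    exact ⟨fun i j => by simpa using (abs_le.1 (this i j)).1,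
      fun i j => by simpa using (abs_le.1 (this i j)).2⟩
  | succ n ih => exact HCov_step ih.choose_spec

theorem HCov_sl (n : ℕ) : ∃ F : Set (Fin (n + 1) → Fin (n + 1) → ℝ), MeasurableSet F ∧
    volume F ≠ ∞ ∧ ∀ g : Matrix (Fin (n + 1)) (Fin (n + 1)) ℝ, g.det ≠ 0 → |g.det| ≤ 1 →
      ∃ γ : Matrix (Fin (n + 1)) (Fin (n + 1)) ℤ, γ.det = 1 ∧
        (fun i j => (γ.map (Int.cast : ℤ → ℝ) * g) i j) ∈ F := by
  obtain ⟨F, hm, hv, hc⟩ := HCov_ex n
  let e : Matrix (Fin (n + 1)) (Fin (n + 1)) ℤ := diagonal fun i => if i = 0 then -1 else 1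
  have h1 : e.det = -1 := by simp [e, det_diagonal]
  have h2 : e * e = 1 := by
    rw [diagonal_mul_diagonal, ← diagonal_one]
    congr 1
    funext i
    split_ifs <;> simp
  have h3 := HCov_left (e.map (Int.cast : ℤ → ℝ)) (by rw [← Int.cast_det, h1]; simp)
  refine ⟨F ∪ _ ⁻¹' F, hm.union (h3.measurable hm), ne_top_of_le_ne_top ?_ (measure_union_le _ _),
    fun g hg hg1 => ?_⟩
  · rw [h3.measure_preimage hm.nullMeasurableSet]
    exact ENNReal.add_ne_top.2 ⟨hv, hv⟩
  obtain ⟨γ, hγ, hF⟩ := hc g hg hg1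
  rcases Int.isUnit_iff.1 hγ with h | h
  · exact ⟨γ, h, Or.inl hF⟩
  refine ⟨e * γ, by simp [h, h1], Or.inr ((congrArg (· ∈ F) ?_).mp hF)⟩
  have h4 : ∀ a b : Matrix (Fin (n + 1)) (Fin (n + 1)) ℤ,
      (a * b).map (Int.cast : ℤ → ℝ) = a.map Int.cast * b.map Int.cast := fun a b =>
    Matrix.map_mul (f := Int.castRingHom ℝ)
  change γ.map Int.cast * g = e.map (Int.cast : ℤ → ℝ) * ((e * γ).map Int.cast * g)
  rw [← Matrix.mul_assoc, ← h4, ← Matrix.mul_assoc, h2, Matrix.one_mul]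

end TP
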