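import Vale.Agent.P007.Space
import Vale.Agent.P007.Fields

/-! Assembly: packets of maximal orders are nonempty, and the counterexample sequence. -/

open Matrix MeasureTheory NumberField Filter Topology
open scoped CompactlySupported

noncomputable section

namespace Vale.Agent.P007

lemma packet_nonempty {n : ℕ} (D : Datum n)
    (hO : D.O = (integralClosure ℤ D.K).toSubring) : (⋃₀ D.packet).Nonempty := by
  classical
  have hn : 0 < n := D.degree ▸ Module.finrank_pos
  have hcard : Fintype.card (Module.Free.ChooseBasisIndex ℤ (𝓞 D.K)) = n := by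
    rw [← Module.finrank_eq_card_chooseBasisIndex, RingOfIntegers.rank, D.degree]
  let b : Module.Basis (Fin n) ℚ D.K :=
    (integralBasis D.K).reindex (Fintype.equivFinOfCardEq hcard)
  have hb : ∀ x : D.K, x ∈ Submodule.span ℤ (Set.range b) ↔ x ∈ D.O := by
    intro x
    rw [Module.Basis.range_reindex, mem_span_integralBasis, hO]
    constructor
    · rintro ⟨y, rfl⟩
      exact y.2
    · intro hx
      exact ⟨⟨x, hx⟩, rfl⟩
  let B : Matrix (Fin n) (Fin n) ℝ := Matrix.of fun i j => D.σ j (b i)
  have hdet : B.det ≠ 0 := by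
    intro h
    obtain ⟨c, hc0, hc⟩ := Matrix.exists_mulVec_eq_zero_iff.2 h
    have hli := (linearIndependent_monoidHom D.K ℝ).comp
      (fun j : Fin n => ((D.σ j : D.K →+* ℝ) : D.K →* ℝ)) (by
        intro i j hij
        apply D.σ.injective
        ext x
        exact DFunLike.congr_fun hij x)
    apply hc0
    ext j
    refine Fintype.linearIndependent_iff.1 hli c ?_ j
    have h1 : ∑ j, c j • (D.σ j).toRatAlgHom.toLinearMap = 0 := by
      refine b.ext fun i => ?_
      have := congrFun hc i
      simp only [mulVec, dotProduct, B, of_apply, Pi.zero_apply] at this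
      simpa [mul_comm] using this
    ext x
    have := LinearMap.congr_fun h1 x
    simpa using this
  have hli : LinearIndependent ℝ (fun i j => B i j) := Matrix.linearIndependent_rows_of_det_ne_zero hdet
  let bR : Module.Basis (Fin n) ℝ (Fin n → ℝ) := basisOfPiSpaceOfLinearIndependent hli
  have hbR : ⇑bR = fun i j => B i j := coe_basisOfPiSpaceOfLinearIndependent hli
  let e : D.K →ₗ[ℤ] (Fin n → ℝ) :=
    LinearMap.pi fun j => (D.σ j).toAddMonoidHom.toIntLinearMap
  let I : Submodule ℤ D.K := Submodule.span ℤ (Set.range b)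
  have hI : D.IsFracIdeal I := by
    refine ⟨fun h => ?_, Submodule.fg_span (Set.finite_range _), fun a ha y hy => ?_⟩
    · have : (1 : D.K) ∈ I := (hb 1).2 D.O.one_mem
      rw [h] at this
      simp at this
    · exact (hb _).2 (D.O.mul_mem ha ((hb y).1 hy))
  have hemb : D.embed I = Submodule.span ℤ (Set.range bR) := by
    unfold Datum.embed
    change Submodule.span ℤ (e '' _) = _
    rw [← Submodule.map_span, Submodule.span_eq, Submodule.map_span, ← Set.range_comp, hbR]
    rfl
  have hcov : ZLattice.covolume (D.embed I) = |B.det| := by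
    rw [hemb, ZLattice.covolume_eq_measure_fundamentalDomain _ _
      (ZSpan.isAddFundamentalDomain bR volume), ZSpan.volume_real_fundamentalDomain, hbR]
    rfl
  set c : ℝ := ZLattice.covolume (D.embed I) ^ (-(1 : ℝ) / n) with hc
  have hpos : 0 < |B.det| := abs_pos.2 hdet
  have hcn : c ^ n = |B.det|⁻¹ := by
    rw [hc, hcov, ← Real.rpow_natCast, ← Real.rpow_mul hpos.le,
      div_mul_cancel₀ _ (by exact_mod_cast hn.ne'), Real.rpow_neg_one]
  let j₀ : Fin n := ⟨0, hn⟩
  let w : Fin n → ℝ := fun j => if j = j₀ then (if 0 < B.det then 1 else -1) else 1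
  have hw : ∏ j, w j = if 0 < B.det then 1 else -1 := by
    simp [w]
  have hg : (B * diagonal fun j => c * w j).det = 1 := by
    rw [det_mul, det_diagonal, Finset.prod_mul_distrib, hw]
    simp only [Finset.prod_const, Finset.card_univ, Fintype.card_fin, hcn]
    split_ifs with h
    · rw [abs_of_pos h]
      field_simp
    · rw [abs_of_nonpos (not_lt.1 h)]
      field_simp
  let g : GG n := ⟨_, hg⟩
  refine ⟨proj g, _, ⟨I, w, ⟨hI, ?_, I, hI, ?_⟩, ?_, rfl⟩, 0, by simp, ?_⟩
  · ext α
    simp only [Set.mem_ofPred_eq, SetLike.mem_coe, I, hb]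
    exact ⟨fun h => by simpa using h 1 D.O.one_mem, fun h y hy => D.O.mul_mem h hy⟩
  · ext α
    simp only [SetLike.mem_coe]
    constructor
    · intro h
      refine Submodule.mul_induction_on h (fun x hx y hy => ?_) fun x y hx hy => D.O.add_mem hx hy
      exact D.O.mul_mem ((hb x).1 hx) ((hb y).1 hy)
    · intro h
      simpa using Submodule.mul_mem_mul ((hb α).2 h) ((hb 1).2 D.O.one_mem)
  · intro j
    simp only [w]
    split_ifs <;> simp
  · rw [lattice_proj, ← hc, hemb]
    let L : (Fin n → ℝ) →ₗ[ℤ] (Fin n → ℝ) :=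
      LinearMap.pi fun j => ((c * w j) • LinearMap.proj (R := ℝ) (φ := fun _ => ℝ) j).restrictScalars ℤ
    have hL : (fun (v : Fin n → ℝ) j => c * v j * w j * Real.exp ((0 : Fin n → ℝ) j)) = L := by
      ext v j
      simp [L]
      ring
    rw [hL, ← Submodule.map_coe, Submodule.map_span, ← Set.range_comp, hbR]
    congr 3
    ext i j
    simp [L, g, mul_diagonal, mul_comm]

theorem exists_sequence (n : ℕ) (hn : 4 ≤ n) (hp : ¬ n.Prime) :
    ∃ (D : ℕ → Datum n) (C : ℝ), (∀ i, (D i).O = (integralClosure ℤ (D i).K).toSubring) ∧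
      Tendsto (fun i => (D i).absDisc) atTop atTop ∧
      ∀ i, ∃ θ ∈ (D i).O, (∀ k : ℤ, θ ≠ k) ∧ ∀ j, |(D i).σ j θ| ≤ C := by
  classical
  obtain ⟨a, b, ha, hb, rfl⟩ : ∃ a b : ℕ, 2 ≤ a ∧ 2 ≤ b ∧ n = a * b := by
    obtain ⟨a, b, ha, hb, h⟩ := (Nat.not_prime_iff_exists_mul_eq (by omega)).1 hp
    refine ⟨a, b, ?_, ?_, h.symm⟩
    · rcases a with _ | _ | a <;> omega
    · rcases b with _ | _ | b <;> omega
  obtain ⟨θ, q, hq, hθ, hθk, hS⟩ := exists_family a b ha hb
  let K := hS.natEmbedding _
  let D : ℕ → Datum (a * b) := fun i =>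
    haveI : FiniteDimensional ℚ (K i : IntermediateField ℚ ℝ) := (K i).2.1
    haveI : NumberField (K i : IntermediateField ℚ ℝ) := NumberField.mk
    haveI : IsTotallyReal (K i : IntermediateField ℚ ℝ) := (K i).2.2.2.2
    { K := (K i : IntermediateField ℚ ℝ)
      totallyReal := inferInstance
      degree := (K i).2.2.1
      σ := (finCongr (K i).2.2.1.symm).trans (card_real_embeddings _).some
      O := (integralClosure ℤ (K i : IntermediateField ℚ ℝ)).toSubring
      integral := fun _ hx => hx
      fullRank := by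
        rw [eq_top_iff, ← (integralBasis (K i : IntermediateField ℚ ℝ)).span_eq]
        refine Submodule.span_mono ?_
        rintro _ ⟨k, rfl⟩
        rw [integralBasis_apply]
        exact (RingOfIntegers.basis _ k).2 }
  obtain ⟨C, hC⟩ := ((q.rootSet_finite ℝ).image fun x => |x|).bddAbove
  refine ⟨D, C, fun _ => rfl, ?_, fun i => ?_⟩
  · rw [tendsto_atTop]
    intro N
    rw [← Nat.cofinite_eq_atTop, eventually_cofinite]
    have hfin := NumberField.finite_of_discr_bdd ℝ N
    let ι : ℕ → {F : IntermediateField ℚ ℝ // FiniteDimensional ℚ F} :=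
      fun i => ⟨K i, (K i).2.1⟩
    have hι : Function.Injective ι := by
      intro i j hij
      apply K.injective
      have h1 : (ι i).1 = (ι j).1 := congrArg Subtype.val hij
      exact Subtype.ext h1
    refine (hfin.preimage hι.injOn).subset fun i hi => ?_
    simp only [Set.mem_ofPred_eq, not_le, Datum.absDisc] at hi
    have h1 : (D i).O.toAddSubgroup.relIndex
        (integralClosure ℤ (D i).K).toSubring.toAddSubgroup = 1 := AddSubgroup.relIndex_self _
    rw [h1, one_pow, mul_one] at hi
    change |@NumberField.discr (D i).K (D i).field (D i).numberField| ≤ (N : ℤ)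
    rw [Int.abs_eq_natAbs]
    exact_mod_cast hi.le
  · let y : (D i).K := ⟨θ, (K i).2.2.2.1⟩
    have hy : Polynomial.aeval y q = 0 := by
      apply (algebraMap (K i : IntermediateField ℚ ℝ) ℝ).injective
      erw [← Polynomial.aeval_algebraMap_apply, map_zero]
      exact hθ
    refine ⟨y, ⟨q, hq, hy⟩, fun k hk => hθk k ?_, fun j => hC ⟨_, ?_, rfl⟩⟩
    · exact congrArg Subtype.val hk
    · rw [Polynomial.mem_rootSet]
      refine ⟨hq.ne_zero, ?_⟩
      have := Polynomial.aeval_algHom_apply ((D i).σ j).toIntAlgHom y q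
      rw [hy, map_zero] at this
      exact this

end Vale.Agent.P007
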