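import Mathlib

/-! An open set of `SL_n(R)` on which no bounded non-scalar diagonal matrix is conjugated to an
integer matrix. -/

open Matrix Polynomial

namespace Vale.Agent.P007

lemma eigen_scalar {n : ℕ} (t : ℝ) (ht : Transcendental ℤ t)
    (M : Matrix (Fin (n + 1)) (Fin (n + 1)) ℤ) (l : ℝ)
    (h : ∀ i, ∑ j, (M i j : ℝ) * t ^ (j : ℕ) = l * t ^ (i : ℕ)) :
    ∀ i j, M i j = if i = j then M 0 0 else 0 := by
  have hinj : Function.Injective (aeval t : ℤ[X] → ℝ) := (transcendental_iff_injective).1 ht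
  set P : Fin (n + 1) → ℤ[X] := fun i => ∑ j : Fin (n + 1), monomial (j : ℕ) (M i j) with hP
  have hPe : ∀ i, aeval t (P i) = l * t ^ (i : ℕ) := by
    intro i
    rw [← h i, hP]
    simp [aeval_monomial]
  have hco : ∀ i (j : Fin (n + 1)), (P i).coeff j = M i j := by
    intro i j
    simp only [hP, finsetSum_coeff, coeff_monomial]
    rw [Finset.sum_eq_single j]
    · simp
    · intro b _ hb
      rw [if_neg]
      exact fun h => hb (Fin.ext h)
    · simp
  have hco' : ∀ i (k : ℕ), n < k → (P i).coeff k = 0 := by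
    intro i k hk
    simp only [hP, finsetSum_coeff, coeff_monomial]
    refine Finset.sum_eq_zero fun j _ => ?_
    rw [if_neg]
    have := j.2
    omega
  have hl : l = aeval t (P 0) := by rw [hPe 0]; simp
  have hmul : ∀ i, P i = P 0 * X ^ (i : ℕ) := by
    intro i
    apply hinj
    simp only [map_mul, map_pow, aeval_X]
    rw [hPe i, ← hl]
  have h0 : ∀ k : ℕ, 0 < k → (P 0).coeff k = 0 := by
    intro k hk
    have := congrArg (fun p => p.coeff (k + n)) (hmul (Fin.last n))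
    simp only [Fin.val_last, coeff_mul_X_pow] at this
    rw [← this]
    exact hco' _ _ (by omega)
  have hP0 : P 0 = C (M 0 0) := by
    ext k
    rcases Nat.eq_zero_or_pos k with rfl | hk
    · simpa using hco 0 0
    · rw [h0 k hk, coeff_C, if_neg hk.ne']
  intro i j
  rw [← hco i j, hmul i, hP0, coeff_C_mul_X_pow]
  by_cases hij : i = j
  · simp [hij]
  · rw [if_neg hij, if_neg]
    exact fun h => hij (Fin.ext h).symm

lemma sl_mul_inv {n : ℕ} (g : SpecialLinearGroup (Fin n) ℝ) : g.1 * (g⁻¹).1 = 1 :=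
  congrArg Subtype.val (mul_inv_cancel g)

lemma sl_inv_mul {n : ℕ} (g : SpecialLinearGroup (Fin n) ℝ) : (g⁻¹).1 * g.1 = 1 :=
  congrArg Subtype.val (inv_mul_cancel g)

lemma exists_open (n : ℕ) (C : ℝ) :
    ∃ U : Set (SpecialLinearGroup (Fin (n + 1)) ℝ), IsOpen U ∧ U.Nonempty ∧
      ∀ g ∈ U, ∀ d : Fin (n + 1) → ℝ, (∀ j, |d j| ≤ C) →
        ∀ M : Matrix (Fin (n + 1)) (Fin (n + 1)) ℤ,
          g.1 * diagonal d = M.map (Int.cast : ℤ → ℝ) * g.1 → ∃ k : ℤ, ∀ j, d j = k := by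
  classical
  obtain ⟨t, ht⟩ : ∃ t : ℝ, Transcendental ℤ t :=
    ⟨_, transcendental_liouvilleNumber (m := 2) le_rfl⟩
  let v : Fin (n + 1) → ℝ := fun i => t ^ (i : ℕ)
  have hdet : ((1 : Matrix (Fin (n + 1)) (Fin (n + 1)) ℝ).updateCol 0 v).det = 1 := by
    rw [← cramer_apply, cramer_one]
    simp [v]
  let g₀ : SpecialLinearGroup (Fin (n + 1)) ℝ := ⟨_, hdet⟩
  have hc1 : ∀ i j, Continuous fun g : SpecialLinearGroup (Fin (n + 1)) ℝ => g.1 i j :=
    fun i j => (continuous_apply_apply i j).comp continuous_subtype_val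
  have hc2 : ∀ i j, Continuous fun g : SpecialLinearGroup (Fin (n + 1)) ℝ => (g⁻¹).1 i j :=
    fun i j => (hc1 i j).comp continuous_inv
  obtain ⟨B, hB0, hB⟩ : ∃ B : ℝ, 0 ≤ B ∧ ∀ i j, |g₀.1 i j| < B ∧ |(g₀⁻¹).1 i j| < B := by
    refine ⟨1 + ∑ i, ∑ j, (|g₀.1 i j| + |(g₀⁻¹).1 i j|), by positivity, fun i j => ?_⟩
    have h1 : |g₀.1 i j| + |(g₀⁻¹).1 i j| ≤ ∑ j, (|g₀.1 i j| + |(g₀⁻¹).1 i j|) :=
      Finset.single_le_sum (f := fun j => |g₀.1 i j| + |(g₀⁻¹).1 i j|)
        (fun j _ => by positivity) (Finset.mem_univ j)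
    have h2 : ∑ j, (|g₀.1 i j| + |(g₀⁻¹).1 i j|) ≤ ∑ i, ∑ j, (|g₀.1 i j| + |(g₀⁻¹).1 i j|) :=
      Finset.single_le_sum (f := fun i => ∑ j, (|g₀.1 i j| + |(g₀⁻¹).1 i j|))
        (fun i _ => by positivity) (Finset.mem_univ i)
    have := abs_nonneg (g₀.1 i j)
    have := abs_nonneg ((g₀⁻¹).1 i j)
    constructor <;> linarith
  let V : Set (SpecialLinearGroup (Fin (n + 1)) ℝ) :=
    ⋂ i, ⋂ j, ({g | |g.1 i j| < B} ∩ {g | |(g⁻¹).1 i j| < B})
  have hV : IsOpen V := by
    refine isOpen_iInter_of_finite fun i => isOpen_iInter_of_finite fun j => IsOpen.inter ?_ ?_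
    · exact isOpen_lt (hc1 i j).abs continuous_const
    · exact isOpen_lt (hc2 i j).abs continuous_const
  let N : ℤ := ⌈(n + 1 : ℝ) * (B * C * B)⌉
  let S : Set (Matrix (Fin (n + 1)) (Fin (n + 1)) ℤ) :=
    {M | (∀ i j, M i j ∈ Set.Icc (-N) N) ∧ ¬ ∀ i j, M i j = if i = j then M 0 0 else 0}
  have hS : S.Finite := by
    have : (Set.pi Set.univ fun _ : Fin (n + 1) =>
        Set.pi Set.univ fun _ : Fin (n + 1) => Set.Icc (-N) N).Finite :=
      Set.Finite.pi fun _ => Set.Finite.pi fun _ => Set.finite_Icc _ _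
    refine this.subset fun M hM => ?_
    intro i _ j _
    exact hM.1 i j
  let Z : Matrix (Fin (n + 1)) (Fin (n + 1)) ℤ → Set (SpecialLinearGroup (Fin (n + 1)) ℝ) :=
    fun M => ⋂ i, ⋂ j, ⋂ (_ : i ≠ j), {g | ((g⁻¹).1 * M.map (Int.cast : ℤ → ℝ) * g.1) i j = 0}
  have hZ : ∀ M, IsClosed (Z M) := by
    intro M
    refine isClosed_iInter fun i => isClosed_iInter fun j => isClosed_iInter fun _ => ?_
    refine isClosed_eq ?_ continuous_const
    refine (continuous_apply_apply i j).comp ?_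
    exact ((continuous_matrix hc2).matrix_mul continuous_const).matrix_mul
      (continuous_matrix hc1)
  refine ⟨V ∩ ⋂ M ∈ S, (Z M)ᶜ, hV.inter (hS.isOpen_biInter fun M _ => (hZ M).isOpen_compl),
    ⟨g₀, ?_, ?_⟩, ?_⟩
  · simp only [V, Set.mem_iInter]
    exact fun i j => hB i j
  · simp only [Set.mem_iInter]
    intro M hM hg
    apply hM.2
    simp only [Z, Set.mem_iInter, Set.mem_ofPred_eq] at hg
    set D := (g₀⁻¹).1 * M.map (Int.cast : ℤ → ℝ) * g₀.1 with hD
    have hMD : M.map (Int.cast : ℤ → ℝ) * g₀.1 = g₀.1 * D := by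
      rw [hD, ← Matrix.mul_assoc, ← Matrix.mul_assoc, sl_mul_inv, Matrix.one_mul]
    refine eigen_scalar t ht M (D 0 0) fun i => ?_
    have := congrFun (congrFun hMD i) 0
    rw [mul_apply, mul_apply, Finset.sum_eq_single (0 : Fin (n + 1))
      (f := fun j => g₀.1 i j * D j 0)] at this
    · simpa [g₀, v, mul_comm] using this
    · intro b _ hb
      rw [hg b 0 hb, mul_zero]
    · simp
  · rintro g ⟨hgV, hgZ⟩ d hd M hM
    simp only [V, Set.mem_iInter, Set.mem_inter_iff, Set.mem_ofPred_eq] at hgV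
    have hC : 0 ≤ C := (abs_nonneg _).trans (hd 0)
    have hM1 : M.map (Int.cast : ℤ → ℝ) = g.1 * diagonal d * (g⁻¹).1 := by
      rw [hM, Matrix.mul_assoc, sl_mul_inv, Matrix.mul_one]
    have hM2 : (g⁻¹).1 * M.map (Int.cast : ℤ → ℝ) * g.1 = diagonal d := by
      rw [Matrix.mul_assoc, ← hM, ← Matrix.mul_assoc, sl_inv_mul, Matrix.one_mul]
    have hbd : ∀ i j, M i j ∈ Set.Icc (-N) N := by
      intro i j
      rw [Set.mem_Icc, ← abs_le]
      have h1 : |(M i j : ℝ)| ≤ (n + 1 : ℝ) * (B * C * B) := by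
        have := congrFun (congrFun hM1 i) j
        rw [map_apply, mul_apply] at this
        rw [this]
        refine (Finset.abs_sum_le_sum_abs _ _).trans ?_
        have : ∀ k ∈ (Finset.univ : Finset (Fin (n + 1))),
            |(g.1 * diagonal d) i k * (g⁻¹).1 k j| ≤ B * C * B := by
          intro k _
          rw [mul_diagonal, abs_mul, abs_mul]
          have h1 := (hgV i k).1.le
          have h2 := (hgV k j).2.le
          have h3 := hd k
          gcongr
        refine (Finset.sum_le_card_nsmul _ _ _ this).trans ?_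
        simp
      have h2 : ((|M i j| : ℤ) : ℝ) ≤ (N : ℝ) := by
        rw [Int.cast_abs]
        exact h1.trans (Int.le_ceil _)
      exact_mod_cast h2
    by_cases hsc : ∀ i j, M i j = if i = j then M 0 0 else 0
    · refine ⟨M 0 0, fun j => ?_⟩
      have h3 : M.map (Int.cast : ℤ → ℝ) = (M 0 0 : ℝ) • (1 : Matrix _ _ ℝ) := by
        ext i k
        rw [map_apply, hsc i k]
        by_cases hik : i = k <;> simp [hik, one_apply]
      rw [h3, Matrix.mul_smul, Matrix.mul_one, Matrix.smul_mul, sl_inv_mul] at hM2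
      have := congrFun (congrFun hM2 j) j
      simpa using this.symm
    · exfalso
      simp only [Set.mem_iInter] at hgZ
      apply hgZ M ⟨hbd, hsc⟩
      simp only [Z, Set.mem_iInter, Set.mem_ofPred_eq]
      intro i j hij
      rw [hM2, diagonal_apply_ne _ hij]

end Vale.Agent.P007
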