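import Mathlib

/-! Totally real Eisenstein polynomials. -/

open Polynomial NumberField

noncomputable section

namespace Vale.Agent.P007

/-- `∏_{j<b} (X - 4 p j) - p`. -/
def eis (p b : ℕ) : ℤ[X] := ∏ j ∈ Finset.range b, (X - C (4 * (p : ℤ) * j)) - C (p : ℤ)

lemma prod_monic (p b : ℕ) : (∏ j ∈ Finset.range b, (X - C (4 * (p : ℤ) * j))).Monic :=
  monic_prod_of_monic _ _ fun _ _ => monic_X_sub_C _

lemma prod_natDegree (p b : ℕ) :
    (∏ j ∈ Finset.range b, (X - C (4 * (p : ℤ) * j))).natDegree = b := by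
  rw [natDegree_prod_of_monic _ _ fun _ _ => monic_X_sub_C _]
  simp only [natDegree_X_sub_C]
  simp

lemma eis_natDegree (p b : ℕ) : (eis p b).natDegree = b := by
  rw [eis, natDegree_sub_C, prod_natDegree]

lemma eis_monic (p b : ℕ) (hb : 0 < b) : (eis p b).Monic := by
  refine (prod_monic p b).sub_of_left ?_
  refine degree_C_le.trans_lt ?_
  rw [degree_eq_natDegree (prod_monic p b).ne_zero, prod_natDegree]
  exact_mod_cast hb

lemma eis_coeff_zero (p b : ℕ) (hb : 0 < b) : (eis p b).coeff 0 = -p := by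
  rw [eis, coeff_sub, coeff_zero_eq_eval_zero, eval_prod,
    Finset.prod_eq_zero (Finset.mem_range.2 hb) (by simp)]
  simp

lemma eis_dvd (p b : ℕ) (k : ℕ) (hk : k < b) : (p : ℤ) ∣ (eis p b).coeff k := by
  rw [← ZMod.intCast_zmod_eq_zero_iff_dvd]
  have : (eis p b).map (Int.castRingHom (ZMod p)) = X ^ b := by
    rw [eis, Polynomial.map_sub, Polynomial.map_prod]
    simp
  have h2 := congrArg (fun q => q.coeff k) this
  simp only [coeff_map, coeff_X_pow, if_neg hk.ne] at h2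
  simpa using h2

lemma eis_irreducible (E : Type*) [Field E] [NumberField E] (p b : ℕ) (hp : p.Prime)
    (hb : 0 < b) (hd : ¬ (p : ℤ) ∣ discr E) :
    Irreducible ((eis p b).map (algebraMap ℤ E)) := by
  have hp' : Prime (p : ℤ) := Nat.prime_iff_prime_int.1 hp
  have : (Ideal.span {(p : ℤ)}).IsMaximal :=
    PrincipalIdealRing.isMaximal_of_irreducible hp'.irreducible
  obtain ⟨P, hP, hPo⟩ :=
    Ideal.exists_maximal_ideal_liesOver_of_isIntegral (Ideal.span {(p : ℤ)}) (S := 𝓞 E)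
  have hun := (not_dvd_discr_iff_forall_liesOver E (𝓞 E) hp').1 hd P hP hPo
  have hne : (Ideal.span {(p : ℤ)}) ≠ ⊥ := by
    simpa using hp.ne_zero
  have h1 : (Ideal.span {(p : ℤ)}).ramificationIdx' P = 1 := by
    rw [Ideal.ramificationIdx'_eq_ramificationIdx _ _ hne]
    exact Ideal.ramificationIdx_eq_one P ℤ
  have hle : (Ideal.span {(p : ℤ)}).map (algebraMap ℤ (𝓞 E)) ≤ P :=
    Ideal.map_le_of_le_comap (P.over_def _).le
  have hpP : ((p : ℤ) : 𝓞 E) ∈ P :=
    hle (Ideal.mem_map_of_mem _ (Ideal.mem_span_singleton_self _))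
  have hpP2 : ((p : ℤ) : 𝓞 E) ∉ P ^ 2 := by
    intro h
    refine (Ideal.ramificationIdx'_ne_one_iff hle).2 ?_ h1
    rw [Ideal.map_span, Ideal.span_le]
    rintro _ ⟨x, rfl, rfl⟩
    exact h
  have hm : ((eis p b).map (algebraMap ℤ (𝓞 E))).Monic := (eis_monic p b hb).map _
  have hdeg : ((eis p b).map (algebraMap ℤ (𝓞 E))).natDegree = b := by
    rw [(eis_monic p b hb).natDegree_map, eis_natDegree]
  have hE : ((eis p b).map (algebraMap ℤ (𝓞 E))).IsEisensteinAt P := by
    refine ⟨?_, ?_, ?_⟩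
    · rw [hm.leadingCoeff]
      exact (Ideal.ne_top_iff_one P).1 hP.ne_top
    · intro k hk
      rw [hdeg] at hk
      obtain ⟨c, hc⟩ := eis_dvd p b k hk
      rw [coeff_map, hc, map_mul]
      exact P.mul_mem_right _ hpP
    · rw [coeff_map, eis_coeff_zero p b hb, map_neg, neg_mem_iff]
      exact hpP2
  have hirr := hE.irreducible hP.isPrime hm.isPrimitive (by rw [hdeg]; exact hb)
  have := (hm.irreducible_iff_irreducible_map_fraction_map (K := E)).1 hirr
  rwa [Polynomial.map_map, ← IsScalarTower.algebraMap_eq] at this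

lemma eis_sign (p b : ℕ) (hp : 0 < p) (hb : 0 < b) (k : ℕ) (hk : k ≤ b) :
    0 < (-1 : ℝ) ^ (b - k) * aeval (4 * (p : ℝ) * k - 2 * p) (eis p b) := by
  have hp' : (1 : ℝ) ≤ p := by exact_mod_cast hp
  have h1 : aeval (4 * (p : ℝ) * k - 2 * p) (eis p b) =
      ∏ j ∈ Finset.range b, (4 * (p : ℝ) * k - 2 * p - 4 * p * j) - p := by
    simp only [eis, map_prod, map_sub, aeval_X, aeval_C]
    simp
  have h2 : (-1 : ℝ) ^ (b - k) * ∏ j ∈ Finset.range b, (4 * (p : ℝ) * k - 2 * p - 4 * p * j) =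
      ∏ j ∈ Finset.range b, |4 * (p : ℝ) * k - 2 * p - 4 * p * j| := by
    rw [← Finset.prod_range_mul_prod_Ico _ hk, ← Finset.prod_range_mul_prod_Ico _ hk]
    have e1 : ∏ j ∈ Finset.range k, |4 * (p : ℝ) * k - 2 * p - 4 * p * j| =
        ∏ j ∈ Finset.range k, (4 * (p : ℝ) * k - 2 * p - 4 * p * j) := by
      refine Finset.prod_congr rfl fun j hj => abs_of_nonneg ?_
      have : (j : ℝ) + 1 ≤ k := by exact_mod_cast Finset.mem_range.1 hj
      nlinarith
    have e2 : ∏ j ∈ Finset.Ico k b, |4 * (p : ℝ) * k - 2 * p - 4 * p * j| =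
        ∏ j ∈ Finset.Ico k b, ((-1) * (4 * (p : ℝ) * k - 2 * p - 4 * p * j)) := by
      refine Finset.prod_congr rfl fun j hj => ?_
      have : (k : ℝ) ≤ j := by exact_mod_cast (Finset.mem_Ico.1 hj).1
      rw [abs_of_nonpos (by nlinarith)]
      ring
    rw [e1, e2, Finset.prod_mul_distrib]
    simp only [Finset.prod_const, Nat.card_Ico]
    ring
  have h3 : (2 * p : ℝ) ^ b ≤ ∏ j ∈ Finset.range b, |4 * (p : ℝ) * k - 2 * p - 4 * p * j| := by
    have : (2 * p : ℝ) ^ b = ∏ _j ∈ Finset.range b, (2 * p : ℝ) := by simp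
    rw [this]
    refine Finset.prod_le_prod (fun _ _ => by positivity) fun j _ => ?_
    rcases lt_or_ge j k with h | h
    · have : (j : ℝ) + 1 ≤ k := by exact_mod_cast h
      rw [abs_of_nonneg (by nlinarith)]
      nlinarith
    · have : (k : ℝ) ≤ j := by exact_mod_cast h
      rw [abs_of_nonpos (by nlinarith)]
      nlinarith
  have h4 : (2 * p : ℝ) ≤ (2 * p : ℝ) ^ b := le_self_pow₀ (by linarith) hb.ne'
  have h5 : (-1 : ℝ) ^ (b - k) * p ≤ p := by
    rcases neg_one_pow_eq_or ℝ (b - k) with h | h <;> rw [h] <;> linarith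
  rw [h1, mul_sub, h2]
  linarith

lemma eis_root (p b : ℕ) (hp : 0 < p) (k : ℕ) (hk : k < b) :
    ∃ r ∈ Set.Ioo (4 * (p : ℝ) * k - 2 * p) (4 * (p : ℝ) * (k + 1 : ℕ) - 2 * p),
      aeval r (eis p b) = 0 := by
  have hp' : (1 : ℝ) ≤ p := by exact_mod_cast hp
  have h1 := eis_sign p b hp (by omega) k hk.le
  have h2 := eis_sign p b hp (by omega) (k + 1) hk
  have e : b - k = (b - (k + 1)) + 1 := by omega
  rw [e, pow_succ] at h1
  have hle : 4 * (p : ℝ) * k - 2 * p ≤ 4 * (p : ℝ) * (k + 1 : ℕ) - 2 * p := by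
    push_cast
    nlinarith
  have hc : Continuous fun x : ℝ => (-1 : ℝ) ^ (b - (k + 1)) * aeval x (eis p b) :=
    continuous_const.mul (Polynomial.continuous_aeval _)
  obtain ⟨r, hr, hr0⟩ := intermediate_value_Ioo hle hc.continuousOn
    (show (0 : ℝ) ∈ Set.Ioo _ _ from ⟨by linarith, h2⟩)
  refine ⟨r, hr, ?_⟩
  simpa using hr0

lemma eis_splits (p b : ℕ) (hp : 0 < p) (hb : 0 < b) :
    ((eis p b).map (algebraMap ℤ ℝ)).Splits := by
  classical
  have hp' : (1 : ℝ) ≤ p := by exact_mod_cast hp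
  have hm : ((eis p b).map (algebraMap ℤ ℝ)).Monic := (eis_monic p b hb).map _
  have hdeg : ((eis p b).map (algebraMap ℤ ℝ)).natDegree = b := by
    rw [(eis_monic p b hb).natDegree_map, eis_natDegree]
  choose r hr hr0 using fun k : Fin b => eis_root p b hp k k.2
  have hmono : StrictMono r := by
    intro i j hij
    have h1 := (hr i).2
    have h2 := (hr j).1
    have : ((i : ℕ) + 1 : ℕ) ≤ (j : ℕ) := hij
    have : (((i : ℕ) + 1 : ℕ) : ℝ) ≤ (j : ℕ) := by exact_mod_cast this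
    nlinarith
  rw [splits_iff_card_roots]
  refine le_antisymm (card_roots' _) ?_
  rw [hdeg]
  calc b = (Finset.univ.image r).card := by
        rw [Finset.card_image_of_injective _ hmono.injective]; simp
    _ ≤ ((eis p b).map (algebraMap ℤ ℝ)).roots.toFinset.card := by
        refine Finset.card_le_card fun x hx => ?_
        obtain ⟨k, -, rfl⟩ := Finset.mem_image.1 hx
        rw [Multiset.mem_toFinset, mem_roots hm.ne_zero, IsRoot.def, eval_map_algebraMap]
        exact hr0 k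
    _ ≤ _ := Multiset.toFinset_card_le _

lemma eis_complex_root (p b : ℕ) (hp : 0 < p) (hb : 0 < b) (z : ℂ) (hz : aeval z (eis p b) = 0) :
    ∃ r : ℝ, (r : ℂ) = z := by
  have hm : ((eis p b).map (algebraMap ℤ ℝ)).Monic := (eis_monic p b hb).map _
  have := (eis_splits p b hp hb).mem_range_of_isRoot (i := algebraMap ℝ ℂ) hm.ne_zero (x := z) (by
    rw [Polynomial.map_map, IsRoot.def, ← IsScalarTower.algebraMap_eq, eval_map_algebraMap]
    exact hz)
  exact this

end Vale.Agent.P007
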