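import Vale.Agent.P007.Defs
import Vale.Agent.P007.OpenSet

/-! Topology of `X_n`, the test function and its positive integral. -/

open Matrix MeasureTheory NumberField
open scoped CompactlySupported

noncomputable section

namespace Vale.Agent.P007

abbrev GG (n : ℕ) : Type := SpecialLinearGroup (Fin n) ℝ

abbrev Gam (n : ℕ) : Subgroup (GG n) :=
  (Matrix.SpecialLinearGroup.map (n := Fin n) (Int.castRingHom ℝ)).range

def proj {n : ℕ} (g : GG n) : X n := Quotient.mk _ g

lemma proj_eq_iff {n : ℕ} (g h : GG n) : proj g = proj h ↔ g * h⁻¹ ∈ Gam n := by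
  constructor
  · intro H
    have H' : MulAction.orbitRel (Gam n) (GG n) g h := Quotient.exact H
    rw [MulAction.orbitRel_apply] at H'
    obtain ⟨γ, hγ⟩ := H'
    have : g = γ.1 * h := hγ.symm
    rw [this, mul_inv_cancel_right]
    exact γ.2
  · intro H
    apply Quotient.sound
    change MulAction.orbitRel (Gam n) (GG n) g h
    rw [MulAction.orbitRel_apply]
    exact ⟨⟨_, H⟩, by simp [Subgroup.smul_def]⟩

lemma proj_out {n : ℕ} (x : X n) : proj (Quotient.out x) = x := Quotient.out_eq x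

lemma isOpenQuotientMap_proj (n : ℕ) : IsOpenQuotientMap (proj : GG n → X n) :=
  MulAction.isOpenQuotientMap_quotientMk

lemma isClosed_Gam (n : ℕ) : IsClosed (Gam n : Set (GG n)) :=
  (Int.isClosedEmbedding_coe_real.specialLinearGroup_map (f := Int.castRingHom ℝ)).isClosed_range

instance instT2X (n : ℕ) : T2Space (X n) := by
  rw [t2Space_iff_of_isOpenQuotientMap (isOpenQuotientMap_proj n)]
  have : {q : GG n × GG n | proj q.1 = proj q.2} = (fun q => q.1 * q.2⁻¹) ⁻¹' (Gam n) := by
    ext q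
    exact proj_eq_iff _ _
  rw [this]
  exact (isClosed_Gam n).preimage (by fun_prop)

instance instLCG (n : ℕ) : LocallyCompactSpace (GG n) :=
  haveI : LocallyCompactSpace (Matrix (Fin n) (Fin n) ℝ) :=
    inferInstanceAs (LocallyCompactSpace (Fin n → Fin n → ℝ))
  Matrix.SpecialLinearGroup.isClosedEmbedding_val.locallyCompactSpace

instance instSCG (n : ℕ) : SecondCountableTopology (GG n) :=
  haveI : SecondCountableTopology (Matrix (Fin n) (Fin n) ℝ) :=
    inferInstanceAs (SecondCountableTopology (Fin n → Fin n → ℝ))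
  Matrix.SpecialLinearGroup.isClosedEmbedding_val.isEmbedding.secondCountableTopology

instance instLCX (n : ℕ) : LocallyCompactSpace (X n) :=
  (isOpenQuotientMap_proj n).locallyCompactSpace

instance instBorelX (n : ℕ) : BorelSpace (X n) := ⟨rfl⟩

lemma act_proj {n : ℕ} (g h : GG n) : act g (proj h) = proj (h * g) := by
  change proj (Quotient.out (proj h) * g) = proj (h * g)
  rw [proj_eq_iff]
  have := (proj_eq_iff _ _).1 (proj_out (proj h))
  simpa [mul_assoc] using this

lemma lattice_le {n : ℕ} (g h : GG n) (H : g * h⁻¹ ∈ Gam n) :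
    Submodule.span ℤ (Set.range fun i j => g.1 i j) ≤
      Submodule.span ℤ (Set.range fun i j => h.1 i j) := by
  obtain ⟨γ, hγ⟩ := H
  have hg : g = Matrix.SpecialLinearGroup.map (Int.castRingHom ℝ) γ * h := by
    rw [hγ, inv_mul_cancel_right]
  rw [Submodule.span_le]
  rintro _ ⟨i, rfl⟩
  have : (fun j => g.1 i j) = ∑ k, γ.1 i k • (fun j => h.1 k j) := by
    ext j
    have h1 : g.1 = γ.1.map (Int.castRingHom ℝ) * h.1 := congrArg Subtype.val hg
    rw [h1, mul_apply]
    simp
  simp only [SetLike.mem_coe]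
  rw [this]
  exact Submodule.sum_mem _ fun k _ =>
    Submodule.smul_mem _ _ (Submodule.subset_span ⟨k, rfl⟩)

lemma lattice_proj {n : ℕ} (g : GG n) :
    lattice (proj g) = Submodule.span ℤ (Set.range fun i j => g.1 i j) := by
  have H := (proj_eq_iff _ _).1 (proj_out (proj g))
  refine le_antisymm (lattice_le _ _ H) (lattice_le _ _ ?_)
  simpa using (Gam n).inv_mem H

lemma integral_pos_of_invariant {n : ℕ} (f : C_c(X n, ℝ)) (hf : ∀ x, 0 ≤ f x) (x₀ : X n)
    (hx₀ : f x₀ ≠ 0) (m : Measure (X n)) [IsProbabilityMeasure m]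
    (hm : ∀ g, MeasurePreserving (act g) m m) : 0 < ∫ x, f x ∂m := by
  have hint : Integrable (fun x => f x) m :=
    f.continuous.integrable_of_hasCompactSupport f.hasCompactSupport
  rw [integral_pos_iff_support_of_nonneg hf hint, pos_iff_ne_zero]
  intro h0
  set W := Function.support fun x => f x with hW
  have hWo : IsOpen W := f.continuous.isOpen_support
  let T : GG n → Set (GG n) := fun g => {h | proj (h * g) ∈ W}
  have hT : ∀ g, IsOpen (T g) := fun g =>
    hWo.preimage ((isOpenQuotientMap_proj n).continuous.comp (continuous_id.mul continuous_const))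
  obtain ⟨s, hs, hsU⟩ := TopologicalSpace.isOpen_iUnion_countable T hT
  have hcov : (Set.univ : Set (X n)) ⊆ ⋃ g ∈ s, act g ⁻¹' W := by
    intro x _
    obtain ⟨h, rfl⟩ := (isOpenQuotientMap_proj n).surjective x
    have : h ∈ ⋃ g, T g := by
      refine Set.mem_iUnion.2 ⟨h⁻¹ * Quotient.out x₀, ?_⟩
      change proj (h * (h⁻¹ * Quotient.out x₀)) ∈ W
      rw [mul_inv_cancel_left, proj_out]
      exact hx₀
    rw [← hsU] at this
    simp only [Set.mem_iUnion] at this ⊢
    obtain ⟨g, hg, hh⟩ := this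
    exact ⟨g, hg, by rw [Set.mem_preimage, act_proj]; exact hh⟩
  have h1 : m (⋃ g ∈ s, act g ⁻¹' W) = 0 := by
    rw [measure_biUnion_null_iff hs]
    intro g _
    rw [(hm g).measure_preimage hWo.measurableSet.nullMeasurableSet, h0]
  have h2 : m Set.univ = 0 := measure_mono_null hcov h1
  simp at h2

lemma embed_mul_mem {n : ℕ} (D : Datum n) (I : Submodule ℤ D.K)
    (θ : D.K) (hθ : ∀ y ∈ I, θ * y ∈ I) (v : Fin n → ℝ) (hv : v ∈ D.embed I) :
    (fun j => v j * D.σ j θ) ∈ D.embed I := by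
  unfold Datum.embed at hv ⊢
  induction hv using Submodule.span_induction with
  | mem x hx =>
    obtain ⟨y, hy, rfl⟩ := hx
    refine Submodule.subset_span ⟨θ * y, ?_, ?_⟩
    · exact hθ y hy
    · ext j
      simp [mul_comm]
  | zero =>
    convert Submodule.zero_mem _ using 1
    ext j
    simp
  | add x y _ _ hx hy =>
    have := Submodule.add_mem _ hx hy
    convert this using 1
    ext j
    simp [add_mul]
  | smul a x _ hx =>
    have := Submodule.smul_mem _ a hx
    convert this using 1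
    ext j
    simp [mul_assoc]

/-- The test function. -/
theorem exists_test (n : ℕ) (hn : 0 < n) (C : ℝ) :
    ∃ f : C_c(X n, ℝ), (∀ x, 0 ≤ f x) ∧
      (∀ m : Measure (X n), IsProbabilityMeasure m → (∀ g, MeasurePreserving (act g) m m) →
        0 < ∫ x, f x ∂m) ∧
      ∀ D : Datum n, (∃ θ ∈ D.O, (∀ k : ℤ, θ ≠ k) ∧ ∀ j, |D.σ j θ| ≤ C) →
        ∀ x ∈ ⋃₀ D.packet, f x = 0 := by
  obtain ⟨n, rfl⟩ : ∃ k, n = k + 1 := ⟨n - 1, by omega⟩
  obtain ⟨U, hU, ⟨g₀, hg₀⟩, hUd⟩ := exists_open n C
  have hPU : IsOpen (proj '' U) := (isOpenQuotientMap_proj _).isOpenMap U hU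
  obtain ⟨f, hf1, hf0, hfc, hf01⟩ := exists_continuous_one_zero_of_isCompact
    (isCompact_singleton (x := proj g₀)) hPU.isClosed_compl
    (Set.disjoint_singleton_left.2 fun h => h ⟨g₀, hg₀, rfl⟩)
  refine ⟨⟨f, hfc⟩, fun x => (hf01 x).1, fun m hm hinv => ?_, ?_⟩
  · refine integral_pos_of_invariant ⟨f, hfc⟩ (fun x => (hf01 x).1) (proj g₀) ?_ m hinv
    change f (proj g₀) ≠ 0
    rw [hf1 rfl]
    simp
  · rintro D ⟨θ, hθ, hθk, hθC⟩ x ⟨_, ⟨I, w, hI, -, rfl⟩, u, -, hx⟩
    apply hf0
    rintro ⟨g, hg, rfl⟩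
    rw [lattice_proj] at hx
    have key : ∀ i, ∃ c : Fin (n + 1) → ℤ, ∑ k, c k • (fun j => g.1 k j) =
        fun j => g.1 i j * D.σ j θ := by
      intro i
      rw [← Submodule.mem_span_range_iff_exists_fun, ← SetLike.mem_coe, hx]
      have h1 : (fun j => g.1 i j) ∈ ((Submodule.span ℤ (Set.range fun i j => g.1 i j) :
          Submodule ℤ (Fin (n + 1) → ℝ)) : Set (Fin (n + 1) → ℝ)) :=
        Submodule.subset_span ⟨i, rfl⟩
      rw [hx] at h1
      obtain ⟨v, hv, hvi⟩ := h1
      refine ⟨_, embed_mul_mem D I θ (hI.1.2.2 θ hθ) v hv, ?_⟩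
      ext j
      have := congrFun hvi j
      simp only at this ⊢
      rw [← this]
      ring
    choose M hM using key
    obtain ⟨k, hk⟩ := hUd g hg (fun j => D.σ j θ) hθC (Matrix.of M) (by
      ext i j
      rw [mul_diagonal, mul_apply, ← congrFun (hM i) j]
      simp)
    apply hθk k
    apply (D.σ 0).injective
    rw [hk 0]
    simp

end Vale.Agent.P007
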