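import Vale.Agent.P007.Defs

/-!
The diagonal group, the volume and the invariant probability of an orbit, the measure of a packet,
and the equidistribution statement in degree `n = m + 1`.
-/

open MeasureTheory Filter Topology
open scoped CompactlySupported

noncomputable section

namespace Vale.Agent.P007

/-- The element `diag(exp u_1, …, exp u_m, exp (-(u_1 + … + u_m)))` of `A_n`, `n = m + 1`. -/
def diagA {m : ℕ} (u : Fin m → ℝ) : Matrix.SpecialLinearGroup (Fin (m + 1)) ℝ :=
  ⟨Matrix.diagonal fun j => Real.exp ((Fin.snoc u (-∑ i, u i) : Fin (m + 1) → ℝ) j), by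
    rw [Matrix.det_diagonal, ← Real.exp_sum, Fin.sum_univ_castSucc]
    simp⟩

/-- The group of the `u` such that `diagA u` fixes every point of `S`. -/
def stab {m : ℕ} (S : Set (X (m + 1))) : Submodule ℤ (Fin m → ℝ) :=
  Submodule.span ℤ {u | ∀ x ∈ S, act (diagA u) x = x}

/-- The volume of an orbit for the Haar measure `du_1 ⋯ du_m`: the covolume of its stabiliser. -/
def vol {m : ℕ} (S : Set (X (m + 1))) : ℝ := ZLattice.covolume (stab S)

/-- `ν` is an `A_n`-invariant probability measure carried by `S`. -/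
def IsOrbitMeasure {m : ℕ} (S : Set (X (m + 1))) (ν : Measure (X (m + 1))) : Prop :=
  IsProbabilityMeasure ν ∧ ν Sᶜ = 0 ∧ ∀ u, MeasurePreserving (act (diagA u)) ν ν

/-- The measure `(∑ vol(S) ν_S) / ∑ vol(S)` of the packet. -/
def Datum.measure {m : ℕ} (D : Datum (m + 1)) (ν : Set (X (m + 1)) → Measure (X (m + 1))) :
    Measure (X (m + 1)) :=
  (∑' S : D.packet, ENNReal.ofReal (vol S.1))⁻¹ •
    Measure.sum fun S : D.packet => ENNReal.ofReal (vol S.1) • ν S.1

/-- An `SL_n(R)`-invariant probability measure on `X_n`. -/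
def IsInvariantProb {n : ℕ} (μ : Measure (X n)) : Prop :=
  IsProbabilityMeasure μ ∧ ∀ g, MeasurePreserving (act g) μ μ

/-- In degree `m + 1`, the packet measures of every sequence of orders whose discriminants tend to
infinity converge weakly to an invariant probability measure, and no mass escapes. -/
def Equidistributes (m : ℕ) : Prop :=
  ∀ D : ℕ → Datum (m + 1), Tendsto (fun i => (D i).absDisc) atTop atTop →
    ∀ ν : ℕ → Set (X (m + 1)) → Measure (X (m + 1)),
      (∀ i, ∀ S ∈ (D i).packet, IsOrbitMeasure S (ν i S)) →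
      ∃ μ : Measure (X (m + 1)), IsInvariantProb μ ∧
        (∀ f : C_c(X (m + 1), ℝ),
          Tendsto (fun i => ∫ x, f x ∂((D i).measure (ν i))) atTop (𝓝 (∫ x, f x ∂μ))) ∧
        ∀ ε : ℝ, 0 < ε → ∃ K : Set (X (m + 1)), IsCompact K ∧
          ∀ᶠ i in atTop, ENNReal.ofReal (1 - ε) ≤ (D i).measure (ν i) K

end Vale.Agent.P007
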